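import Vale.Agent.P280.H93.E1
import Vale.Agent.P280.H587.Base
import Vale.Agent.P280.H812.X3

/-!
Row E: a frame of the vectors of weight `-a` at the fixed points of maximal slope near a given one.
-/

namespace Vale.Agent.P280.H93

open Matrix Vale.Agent.P280.T

section weights
variable {M : Type} [AddCommGroup M] [DecidableEq M]
variable {R : Type} [CommRing R] [Algebra ℂ R] {𝒜 : ℕ × M → Submodule ℂ R} [GradedAlgebra 𝒜]

/-- The tangent space at a fixed point is spanned by weight vectors. -/
theorem span_weight_vectors {x : R →ₐ[ℂ] ℂ} {ν : M} (hx : IsFixed 𝒜 x ν)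
    (hfin : FiniteDimensional ℂ (tangentSpace x)) :
    Submodule.span ℂ {v : R →ₗ[ℂ] ℂ | IsTangent x v ∧ ∃ χ, HasWeight 𝒜 ν χ v} =
      tangentSpace x := by
  refine le_antisymm (Submodule.span_le.2 fun v hv => hv.1) fun v hv => ?_
  obtain ⟨u, hu, hsep⟩ := exists_coords (𝒜 := 𝒜) hfin rfl
  choose i hi using hu
  have hcomp := fun χ : M => H587.exists_component hx hv χ
  choose c hc1 hc2 hc3 using hcomp
  let S : Finset M := Finset.univ.image fun j => (i j).2 - (i j).1 • ν
  have h0 : ∑ χ ∈ S, c χ - v = 0 := by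
    apply hsep
    · exact (tangentSpace x).sub_mem (Submodule.sum_mem _ fun χ _ => hc1 χ) hv
    · intro j
      have hj : u j ∈ 𝒜 ((i j).1, (i j).2) := hi j
      rw [LinearMap.sub_apply, LinearMap.sum_apply, sub_eq_zero,
        Finset.sum_eq_single ((i j).2 - (i j).1 • ν)]
      · exact hc3 _ _ _ _ hj (by abel)
      · intro χ _ hχ
        by_contra h
        apply hχ
        rw [hc2 χ _ _ _ hj h]
        abel
      · intro h
        exact absurd (Finset.mem_image_of_mem _ (Finset.mem_univ j)) h
  rw [← sub_eq_zero.1 h0]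
  exact Submodule.sum_mem _ fun χ _ => Submodule.subset_span ⟨hc1 χ, χ, hc2 χ⟩

/-- A frame of homogeneous derivations at a fixed point. -/
theorem exists_frame (hX : IsTorusManifold 𝒜) {x : R →ₐ[ℂ] ℂ} (hxv : ¬ IsVertex 𝒜 x) {ν : M}
    (hx : IsFixed 𝒜 x ν) {N : ℕ} (hN : Module.finrank ℂ (tangentSpace x) = N) :
    ∃ (C c' : ℕ) (r : R) (χ : Fin N → M) (E : Fin N → Derivation ℂ R R) (h : Fin N → R),
      r ∈ 𝒜 (c', c' • ν) ∧ x r ≠ 0 ∧ r = (dmat E h).det ∧
      ∀ i, ∀ (d : ℕ) (m : M), ∀ y ∈ 𝒜 (d, m), E i y ∈ 𝒜 (d + C, m + C • ν - χ i) := by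
  obtain ⟨N', hN'⟩ := exists_dim hX
  have hfd := (hN' x hxv).1
  obtain ⟨b, hb, hli⟩ := exists_fin_family (tangentSpace x) _
    (span_weight_vectors (𝒜 := 𝒜) hx hfd) hN
  choose hbt χ hbw using hb
  have hE := fun i => exists_shift_der hX hxv hx (hbt i) (hbw i)
  choose C0 hC0 using hE
  have hC : ∀ i, C0 i ≤ ∑ i, C0 i := fun i =>
    Finset.single_le_sum (fun _ _ => Nat.zero_le _) (Finset.mem_univ i)
  have hE' := fun i => hC0 i _ (hC i)
  choose E hE1 hE2 using hE'
  obtain ⟨h, hh, hdet⟩ := exists_det_ne b hli _ (span_homogeneous 𝒜)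
  choose k hk using hh
  have hxr : x (dmat E h).det ≠ 0 := by
    rw [AlgHom.map_det]
    have h2 : x.mapMatrix (dmat E h) = Matrix.of fun i j => b i (h j) := by
      ext i j
      rw [AlgHom.mapMatrix_apply, Matrix.map_apply, dmat_apply, Matrix.of_apply, hE2]
    rw [h2]
    exact hdet
  have hr : (dmat E h).det ∈ 𝒜 (∑ j, ((k j).1 + ∑ i, C0 i),
      ∑ j, ((k j).2 + (∑ i, C0 i) • ν) - ∑ l, χ l) := by
    rw [Matrix.det_apply]
    refine Submodule.sum_mem _ fun σ _ => ?_
    rw [Units.smul_def]
    refine zsmul_mem ?_ _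
    have h1 : ∏ j, dmat E h (σ j) j ∈ 𝒜 (∑ j, ((k j).1 + ∑ i, C0 i,
        (k j).2 + (∑ i, C0 i) • ν - χ (σ j))) := by
      refine SetLike.prod_mem_graded 𝒜 _ _ fun j _ => ?_
      exact hE1 (σ j) (k j).1 (k j).2 (h j) (hk j)
    have h2 : ∑ j, ((k j).1 + ∑ i, C0 i, (k j).2 + (∑ i, C0 i) • ν - χ (σ j)) =
        (∑ j, ((k j).1 + ∑ i, C0 i), ∑ j, ((k j).2 + (∑ i, C0 i) • ν) - ∑ l, χ l) := by
      refine Prod.ext ?_ ?_
      · rw [Prod.fst_sum]
      · rw [Prod.snd_sum]
        simp only
        rw [Finset.sum_sub_distrib, Equiv.sum_comp σ χ]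
    rw [h2] at h1
    exact h1
  have hr' := hr
  rw [hx _ _ _ hr hxr] at hr'
  exact ⟨_, _, _, χ, E, h, hr', hxr, rfl, hE1⟩

end weights

/-- A sum over the indices with a property. -/
theorem sum_reindex {N s : ℕ} {P : Fin N → Prop} [DecidablePred P] (ε : {i // P i} ≃ Fin s)
    (g : Fin N → ℂ) (hg : ∀ i, ¬ P i → g i = 0) :
    ∑ i, g i = ∑ j, g (ε.symm j : Fin N) := by
  rw [← Fintype.sum_subtype_add_sum_subtype P g]
  have h1 : ∑ i : {i // ¬ P i}, g i = 0 := Finset.sum_eq_zero fun i _ => hg i i.2
  rw [h1, add_zero]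
  exact (Equiv.sum_comp ε.symm (fun i : {i // P i} => g i)).symm

/-- **Row E.** -/
theorem rowE : H812.RowE := by
  intro R _ _ 𝒜 _ p μ a f hH σ _ q0 hq0 hq0f
  obtain ⟨N, hN⟩ := exists_dim hH.man
  obtain ⟨C, c', r, χ, E, h, hr, hr0, hrdet, hE⟩ := exists_frame hH.man hq0 hq0f (hN q0 hq0).2
  let ε : {i : Fin N // χ i = -a} ≃ Fin (Fintype.card {i : Fin N // χ i = -a}) :=
    Fintype.equivFin _
  refine ⟨C, c', r, Fintype.card {i : Fin N // χ i = -a}, fun j => E (ε.symm j : Fin N), hr, hr0,
    ?_, ?_⟩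
  · intro j d m y hy
    have h1 := hE (ε.symm j : Fin N) d m y hy
    rw [(ε.symm j).2, sub_neg_eq_add] at h1
    exact h1
  · intro q hq hqf hqr
    obtain ⟨hfin, hrk⟩ := hN q hq
    rw [hrdet, AlgHom.map_det] at hqr
    -- all the values are independent
    have hli : ∀ c : Fin N → ℂ, (∀ y, ∑ i, c i * q (E i y) = 0) → c = 0 := by
      intro c hc
      have h3 : Matrix.vecMul c (q.mapMatrix (dmat E h)) = 0 := by
        funext j
        exact hc (h j)
      exact Matrix.eq_zero_of_vecMul_eq_zero hqr h3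
    -- the weights of the values
    have hwt : ∀ i (d : ℕ) (m : ℤ), ∀ y ∈ 𝒜 (d, m), q (E i y) ≠ 0 → m = d • σ + χ i := by
      intro i d m y hy hne
      have h2 := hqf _ _ _ (hE i d m y hy) hne
      rw [add_smul] at h2
      linarith
    constructor
    · intro t ht
      let c : Fin N → ℂ := fun i => if hi : χ i = -a then t (ε ⟨i, hi⟩) else 0
      have hcj : ∀ j, c (ε.symm j : Fin N) = t j := by
        intro j
        have h1 : c (ε.symm j : Fin N) = t (ε ⟨(ε.symm j : Fin N), (ε.symm j).2⟩) :=
          dif_pos (ε.symm j).2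
        rw [h1, Subtype.coe_eta, Equiv.apply_symm_apply]
      have h1 := hli c (fun y => by
        rw [sum_reindex ε (fun i => c i * q (E i y))]
        · rw [← ht y]
          refine Finset.sum_congr rfl fun j _ => ?_
          rw [hcj]
        · intro i hi
          have h2 : c i = 0 := dif_neg hi
          rw [h2, zero_mul])
      funext j
      rw [← hcj, h1]
      rfl
    · intro v hv hw
      have hli' : LinearIndependent ℂ (fun i => (⟨valAt q (E i), isTangent_valAt q (E i)⟩ :
          tangentSpace q)) := by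
        rw [Fintype.linearIndependent_iff]
        intro c hc
        have h1 := hli c (fun y => by
          have h2 := congrArg (fun w : tangentSpace q => (w : R →ₗ[ℂ] ℂ) y) hc
          simpa [Submodule.coe_sum, LinearMap.sum_apply, valAt_apply] using h2)
        exact fun i => congrFun h1 i
      have htop := hli'.span_eq_top_of_card_eq_finrank' (by rw [Fintype.card_fin, hrk])
      have hmem : (⟨v, hv⟩ : tangentSpace q) ∈ Submodule.span ℂ (Set.range
          (fun i => (⟨valAt q (E i), isTangent_valAt q (E i)⟩ : tangentSpace q))) := by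
        rw [htop]
        trivial
      obtain ⟨c, hc⟩ := (Submodule.mem_span_range_iff_exists_fun ℂ).1 hmem
      have hcv : ∀ y, v y = ∑ i, c i * q (E i y) := by
        intro y
        have h7 := congrArg (fun w : tangentSpace q => (w : R →ₗ[ℂ] ℂ) y) hc
        simpa [Submodule.coe_sum, LinearMap.sum_apply, valAt_apply] using h7.symm
      refine ⟨fun j => c (ε.symm j : Fin N), ?_⟩
      let G : R →ₗ[ℂ] ℂ := ∑ j, c (ε.symm j : Fin N) • valAt q (E (ε.symm j : Fin N))
      have hG : ∀ y, G y = ∑ j, c (ε.symm j : Fin N) * q (E (ε.symm j : Fin N) y) := by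
        intro y
        rw [LinearMap.sum_apply]
        rfl
      have hvG : v = G := by
        apply linearMap_ext_graded 𝒜
        rintro ⟨d, m⟩ y hy
        rw [hG]
        by_cases hm : m = d • σ + -a
        · rw [hcv, sum_reindex ε (fun i => c i * q (E i y))]
          intro i hi
          have h3 : q (E i y) = 0 := by
            by_contra hne
            apply hi
            have h4 := hwt i d m y hy hne
            rw [hm] at h4
            exact (add_left_cancel h4).symm
          rw [h3, mul_zero]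
        · have h1 : v y = 0 := by
            by_contra hne
            exact hm (hw d m y hy hne)
          rw [h1]
          symm
          refine Finset.sum_eq_zero fun j _ => ?_
          have h3 : q (E (ε.symm j : Fin N) y) = 0 := by
            by_contra hne
            apply hm
            have h4 := hwt _ d m y hy hne
            rw [(ε.symm j).2] at h4
            exact h4
          rw [h3, mul_zero]
      intro y
      rw [← hG, hvG]

end Vale.Agent.P280.H93
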