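import Vale.Agent.P280.H127.EdgeE
import Vale.Agent.P280.H455.X4Cor

/-! P280, X4: weights on the edges at one source. -/

open DirectSum Vale.Agent.P280.T Vale.Agent.P280.H127

namespace Vale.Agent.P280.H93

section
variable {M : Type} [AddCommGroup M] [DecidableEq M] {R : Type} [CommRing R] [Algebra ℂ R]
  {𝒜 : ℕ × M → Submodule ℂ R} [GradedAlgebra 𝒜]

/-- If all the values `l ω` at the tangent weights are at most `a`, they are at least `-a`. -/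
theorem neg_bound (hX : IsTorusManifold 𝒜) {l g : M →+ ℤ} (hg : Set.InjOn g (H587.wts 𝒜))
    {a : ℤ} (ha : 0 < a) (hmax : ∀ (x : R →ₐ[ℂ] ℂ) (ν ω : M), ¬ IsVertex 𝒜 x →
      IsFixed 𝒜 x ν → TangentWeight 𝒜 x ν ω → l ω ≤ a)
    (x : R →ₐ[ℂ] ℂ) (ν ω : M) (hx0 : ¬ IsVertex 𝒜 x) (hx : IsFixed 𝒜 x ν)
    (hω : TangentWeight 𝒜 x ν ω) : (-l) ω ≤ a := by
  have h1 : (-l) ω = - l ω := rfl
  rw [h1]
  by_cases h0 : l ω = 0
  · rw [h0]
    omega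
  · obtain ⟨v, hv, hw, hc⟩ := hω
    have hX' := H587.isTorusManifold_co (l := l) hX
    have hv' : ¬ IsVertex (H587.co 𝒜 l) x := fun h => hx0 (H587.isVertex_co.1 h)
    have h2 := neg_le_of_le hX' ha (fun y ν' hy hy' ψ hψ =>
      weight_le_co hX hg ha hmax hy hy' hψ) hv' (H587.isFixed_co hx) (χ := l ω) (by
        obtain ⟨d, m, h, hh, hne⟩ := hc 0
        rw [zero_mul, zero_mul] at hne
        exact H587.tangentWeight_of_ne (H587.isFixed_co hx) h0 hv (H587.hasWeight_co hw) d (l m)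
          (H587.mem_co hh) hne)
    omega

/-- The opposite of an edge. -/
theorem isEdge_neg (hX : IsTorusManifold 𝒜) {l g : M →+ ℤ} (hg : Set.InjOn g (H587.wts 𝒜))
    {a : ℤ} (ha : 0 < a) (hE : IsEdge 𝒜 l a) : IsEdge 𝒜 (-l) a where
  le := neg_bound hX hg ha hE.le
  iso := hE.iso
  one := fun x ν ω ω' hx0 hx hω hω' h0 h0' => hE.one x ν ω ω' hx0 hx hω hω' (by
    have h1 : (-l) ω = - l ω := rfl
    omega) (by
    have h1 : (-l) ω' = - l ω' := rfl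
    omega)
  mult := fun x ν ω hx0 hx hω h0 => hE.mult x ν ω hx0 hx hω (by
    have h1 : (-l) ω = - l ω := rfl
    omega)

/-- No multiple of `-χ` is a tangent weight if `l` attains its positive maximum at `χ`. -/
theorem no_multiple' (hX : IsTorusManifold 𝒜) {l g : M →+ ℤ} (hg : Set.InjOn g (H587.wts 𝒜))
    {χ : M} (ha : 0 < l χ) (hmax : ∀ (x : R →ₐ[ℂ] ℂ) (ν ω : M), ¬ IsVertex 𝒜 x →
      IsFixed 𝒜 x ν → TangentWeight 𝒜 x ν ω → l ω ≤ l χ)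
    (x : R →ₐ[ℂ] ℂ) (ν : M) (w : ℕ) (hw : 2 ≤ w) (hx0 : ¬ IsVertex 𝒜 x) (hx : IsFixed 𝒜 x ν) :
    ¬ TangentWeight 𝒜 x ν (-(w • χ)) := by
  intro hω
  have h1 := neg_bound hX hg ha hmax x ν _ hx0 hx hω
  have h2 : (-l) (-(w • χ)) = w * l χ := by
    change - l (-(w • χ)) = _
    rw [map_neg, map_nsmul, neg_neg, nsmul_eq_mul]
  rw [h2] at h1
  have h3 : (2 : ℤ) ≤ w := by exact_mod_cast hw
  nlinarith

/-- A generic one-parameter group which attains its positive maximum at a vertex. -/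
theorem exists_generic_max (hX : IsTorusManifold 𝒜)
    (g : M →+ ℤ) (hg : Set.InjOn g (H587.wts 𝒜)) {x : R →ₐ[ℂ] ℂ} {ν χ : M}
    (hx0 : ¬ IsVertex 𝒜 x) (hx : IsFixed 𝒜 x ν) (hχ : TangentWeight 𝒜 x ν χ) (l : M →+ ℤ)
    (hpos : 0 < l χ)
    (hl : ∀ (y : R →ₐ[ℂ] ℂ) (ξ ω : M), ¬ IsVertex 𝒜 y → IsFixed 𝒜 y ξ →
      TangentWeight 𝒜 y ξ ω → ω ≠ χ → l ω < l χ) :
    ∃ l' : M →+ ℤ, Set.InjOn l' (H587.wts 𝒜) ∧ 0 < l' χ ∧
      ∀ (y : R →ₐ[ℂ] ℂ) (ξ ω : M), ¬ IsVertex 𝒜 y → IsFixed 𝒜 y ξ → TangentWeight 𝒜 y ξ ω →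
        l' ω ≤ l' χ := by
  obtain ⟨K, hK0, hK⟩ := H587.exists_bound (finite_weights hX) g
  have hK' : ∀ {y : R →ₐ[ℂ] ℂ} {ξ ω : M}, ¬ IsVertex 𝒜 y → IsFixed 𝒜 y ξ →
      TangentWeight 𝒜 y ξ ω → |g ω| ≤ K := by
    intro y ξ ω hy0 hy hω
    obtain ⟨h1, h2⟩ := H587.tangentWeight_mem hX hy0 hy hω
    have := hK _ h2 _ h1
    rwa [add_sub_cancel_left] at this
  let l' : M →+ ℤ := (2 * K + 1) • l + g
  have hl' : ∀ m, l' m = (2 * K + 1) * l m + g m := fun m => by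
    change (2 * K + 1) • l m + g m = _
    rw [smul_eq_mul]
  have h3 := abs_le.1 (hK' hx0 hx hχ)
  refine ⟨l', ?_, ?_, ?_⟩
  · intro a ha b hb hab
    apply hg ha hb
    have h1 : (2 * K + 1) * l (a - b) + g (a - b) = 0 := by
      have : l' (a - b) = 0 := by rw [map_sub, hab, sub_self]
      rwa [hl'] at this
    have h2 := abs_le.1 (hK a ha b hb)
    have h3 : l (a - b) = 0 := by
      by_contra hne
      rcases lt_or_gt_of_ne hne with hlt | hgt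
      · nlinarith
      · nlinarith
    rw [h3, mul_zero, zero_add, map_sub] at h1
    exact sub_eq_zero.1 h1
  · rw [hl']
    nlinarith
  · intro y ξ ω hy0 hy hω
    by_cases hne : ω = χ
    · rw [hne]
    · have h1 := hl y ξ ω hy0 hy hω hne
      have h2 := abs_le.1 (hK' hy0 hy hω)
      rw [hl', hl']
      nlinarith

/-- At a vertex `χ` both `χ` and `-χ` are extremal. -/
theorem extremal_pm (hX : IsTorusManifold 𝒜)
    (hiso : ∀ (x : R →ₐ[ℂ] ℂ) (ν : M), ¬ IsVertex 𝒜 x → IsFixed 𝒜 x ν → ¬ TangentWeight 𝒜 x ν 0)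
    (g : M →+ ℤ) (hg : Set.InjOn g (H587.wts 𝒜)) {χ : M} {l : M →+ ℤ}
    (hinj : Set.InjOn l (H587.wts 𝒜)) (hpos : 0 < l χ)
    (hmax : ∀ (y : R →ₐ[ℂ] ℂ) (ξ ω : M), ¬ IsVertex 𝒜 y → IsFixed 𝒜 y ξ →
      TangentWeight 𝒜 y ξ ω → l ω ≤ l χ) : IsExtremal 𝒜 χ ∧ IsExtremal 𝒜 (-χ) := by
  constructor
  · obtain ⟨q, ξ, hq0, hq, hq1, -⟩ := H587.exists_source hX hiso l hinj
    exact ⟨l, q, ξ, hq0, hq, fun ω hω => ⟨hq1 ω hω, hmax q ξ ω hq0 hq hω⟩⟩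
  · have hinj' : Set.InjOn (-l) (H587.wts 𝒜) := by
      intro a ha b hb hab
      have h1 : - l a = - l b := hab
      exact hinj ha hb (neg_injective h1)
    obtain ⟨q, ξ, hq0, hq, hq1, -⟩ := H587.exists_source hX hiso (-l) hinj'
    refine ⟨-l, q, ξ, hq0, hq, fun ω hω => ⟨hq1 ω hω, ?_⟩⟩
    have h1 := neg_bound hX hg hpos hmax q ξ ω hq0 hq hω
    have h2 : (-l) (-χ) = l χ := by
      change - l (-χ) = _
      rw [map_neg, neg_neg]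
    rw [h2]
    exact h1

end

section
variable {r : ℕ} {R : Type} [CommRing R] [Algebra ℂ R] {𝒜 : ℕ × (Fin r → ℤ) → Submodule ℂ R}
  [GradedAlgebra 𝒜]

/-- A tangent weight `χ` on an edge (or a vertex) of the hull: both `χ` and `-χ` are liftable and
no proper multiple of `-χ` is a tangent weight. -/
theorem edge_facts (hX : IsTorusManifold 𝒜) (hN : NefOnRationalCurves 𝒜)
    (hiso : ∀ x ν, ¬ IsVertex 𝒜 x → IsFixed 𝒜 x ν → ¬ TangentWeight 𝒜 x ν 0)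
    (hind : ∀ x ν ω ω', ¬ IsVertex 𝒜 x → IsFixed 𝒜 x ν → TangentWeight 𝒜 x ν ω →
      TangentWeight 𝒜 x ν ω' → (∃ a b : ℤ, a ≠ 0 ∧ b ≠ 0 ∧ a • ω = b • ω') → ω = ω')
    (hmult : ∀ x ν ω, ¬ IsVertex 𝒜 x → IsFixed 𝒜 x ν → TangentWeight 𝒜 x ν ω →
      ∀ v v' : R →ₗ[ℂ] ℂ, IsTangent x v → HasWeight 𝒜 ν ω v → IsTangent x v' →
        HasWeight 𝒜 ν ω v' → ∃ c c' : ℂ, (c ≠ 0 ∨ c' ≠ 0) ∧ ∀ h, c * v h + c' * v' h = 0)
    {x : R →ₐ[ℂ] ℂ} {ν χ : Fin r → ℤ} (hx0 : ¬ IsVertex 𝒜 x) (hx : IsFixed 𝒜 x ν)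
    (hχ : TangentWeight 𝒜 x ν χ) (l : (Fin r → ℤ) →+ ℤ) (δ : Fin r → ℤ) (hl : 0 < l χ)
    (hmax : ∀ y ξ ω, ¬ IsVertex 𝒜 y → IsFixed 𝒜 y ξ → TangentWeight 𝒜 y ξ ω →
      l ω ≤ l χ ∧ (l ω = l χ → ∃ a b : ℤ, b ≠ 0 ∧ b • (ω - χ) = a • δ)) :
    Liftable 𝒜 χ ∧ Liftable 𝒜 (-χ) ∧ ∀ (y : R →ₐ[ℂ] ℂ) (ξ : Fin r → ℤ) (w : ℕ), 2 ≤ w →
      ¬ IsVertex 𝒜 y → IsFixed 𝒜 y ξ → ¬ TangentWeight 𝒜 y ξ (-(w • χ)) := by
  obtain ⟨g, hg⟩ := H587.exists_generic (finite_weights hX)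
  by_cases hδ : δ = 0
  · obtain ⟨l', h1, h2, h3⟩ := exists_generic_max hX g hg hx0 hx hχ l hl (by
      intro y ξ ω hy0 hy hω hne
      obtain ⟨h1, h2⟩ := hmax y ξ ω hy0 hy hω
      refine lt_of_le_of_ne h1 fun heq => hne ?_
      obtain ⟨a, b, hb, hab⟩ := h2 heq
      rw [hδ, smul_zero] at hab
      exact sub_eq_zero.1 ((smul_eq_zero.1 hab).resolve_left hb))
    obtain ⟨h4, h5⟩ := extremal_pm hX hiso g hg h1 h2 h3
    exact ⟨liftable_of_isExtremal hX hN h4, liftable_of_isExtremal hX hN h5,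
      fun y ξ w hw hy0 hy => no_multiple' hX hg h2 h3 y ξ w hw hy0 hy⟩
  · obtain ⟨l', hl', hE⟩ := exists_isEdge hX hiso hind hmult hx0 hx hχ hδ l hl hmax
    have h2 : (-l') (-χ) = l' χ := by
      change - l' (-χ) = _
      rw [map_neg, neg_neg]
    have hE' := isEdge_neg hX hg hl' hE
    refine ⟨liftable_of_base hX hN hg hl' hE.le (baseExt_edge hX hN hg hl' hE),
      liftable_of_base (l := -l') hX hN hg (by rw [h2]; exact hl') ?_ ?_,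
      fun y ξ w hw hy0 hy => no_multiple' hX hg hl' hE.le y ξ w hw hy0 hy⟩
    · rw [h2]
      exact hE'.le
    · rw [h2]
      exact baseExt_edge hX hN hg hl' hE'

end

end Vale.Agent.P280.H93
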