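import Vale.Agent.P280.H93.Cor5
import Vale.Agent.P280.H455.X4Fin
import Vale.Agent.P280.H127.LowAll

/-! P280, X4: the corollaries for vertices and for edges, at one source only. -/

open DirectSum Vale.Agent.P280.T Vale.Agent.P280.H127

namespace Vale.Agent.P280.H93

variable {r : ℕ} {R : Type} [CommRing R] [Algebra ℂ R] {𝒜 : ℕ × (Fin r → ℤ) → Submodule ℂ R}
  [GradedAlgebra 𝒜]

/-- **Corollary 5'.** The fixed points are isolated, the weights at each of them are pairwise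
independent and of multiplicity one, and the weights at ONE fixed point, the source of some
one-parameter group, are vertices of the hull of all weights or lie on edges of it. -/
theorem cor5 (hX : IsTorusManifold 𝒜) (hN : NefOnRationalCurves 𝒜)
    (hiso : ∀ x ν, ¬ IsVertex 𝒜 x → IsFixed 𝒜 x ν → ¬ TangentWeight 𝒜 x ν 0)
    (hind : ∀ x ν ω ω', ¬ IsVertex 𝒜 x → IsFixed 𝒜 x ν → TangentWeight 𝒜 x ν ω →
      TangentWeight 𝒜 x ν ω' → (∃ a b : ℤ, a ≠ 0 ∧ b ≠ 0 ∧ a • ω = b • ω') → ω = ω')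
    (hmult : ∀ x ν ω, ¬ IsVertex 𝒜 x → IsFixed 𝒜 x ν → TangentWeight 𝒜 x ν ω →
      ∀ v v' : R →ₗ[ℂ] ℂ, IsTangent x v → HasWeight 𝒜 ν ω v → IsTangent x v' →
        HasWeight 𝒜 ν ω v' → ∃ c c' : ℂ, (c ≠ 0 ∨ c' ≠ 0) ∧ ∀ h, c * v h + c' * v' h = 0)
    {l0 : (Fin r → ℤ) →+ ℤ} {p : R →ₐ[ℂ] ℂ} {μ : Fin r → ℤ} {a : ℤ} (hs : IsSource 𝒜 l0 p μ a)
    (hedge : ∀ χ, TangentWeight 𝒜 p μ χ →
      ∃ (l : (Fin r → ℤ) →+ ℤ) (δ : Fin r → ℤ), 0 < l χ ∧ ∀ y ξ ω, ¬ IsVertex 𝒜 y →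
        IsFixed 𝒜 y ξ → TangentWeight 𝒜 y ξ ω →
          l ω ≤ l χ ∧ (l ω = l χ → ∃ a b : ℤ, b ≠ 0 ∧ b • (ω - χ) = a • δ)) :
    IsHomogeneousManifold 𝒜 ∧ IsTransitive 𝒜 := by
  refine H455.cor_lift hX hs fun χ hχ => ?_
  obtain ⟨l, δ, hl, hmax⟩ := hedge χ hχ
  exact edge_facts hX hN hiso hind hmult hs.1 hs.2.1 hχ l δ hl hmax

/-- **Corollary 4'.** The fixed points are isolated and the weights at ONE fixed point, the source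
of some one-parameter group, are vertices of the hull of all weights. -/
theorem cor4 (hX : IsTorusManifold 𝒜) (hN : NefOnRationalCurves 𝒜)
    (hiso : ∀ x ν, ¬ IsVertex 𝒜 x → IsFixed 𝒜 x ν → ¬ TangentWeight 𝒜 x ν 0)
    {l0 : (Fin r → ℤ) →+ ℤ} {p : R →ₐ[ℂ] ℂ} {μ : Fin r → ℤ} {a : ℤ} (hs : IsSource 𝒜 l0 p μ a)
    (hext : ∀ χ, TangentWeight 𝒜 p μ χ → ∃ l : (Fin r → ℤ) →+ ℤ, ∀ y ξ ω, ¬ IsVertex 𝒜 y →
      IsFixed 𝒜 y ξ → TangentWeight 𝒜 y ξ ω → ω ≠ χ → l ω < l χ) :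
    IsHomogeneousManifold 𝒜 ∧ IsTransitive 𝒜 := by
  obtain ⟨g, hg⟩ := H587.exists_generic (finite_weights hX)
  refine H455.cor_lift hX hs fun χ hχ => ?_
  obtain ⟨l, hl⟩ := hext χ hχ
  obtain ⟨-, -, h1, h2, h3⟩ := vertex_facts hX hN hiso hg hs.1 hs.2.1 hχ l hl
  exact ⟨h1, h2, h3⟩

end Vale.Agent.P280.H93
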